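import Vale.Agent.P032.R2.H741.R2A.Main
import Vale.Agent.P032.R2.H741.TpS

/-!
# P032: root R2A: the certificate from the facts
-/

set_option autoImplicit false

namespace Vale.Agent.P032.R2.H741.R2A

open Vale.Agent.P032.R2.H741.Tp
open Vale.Agent.P032.R2.H805.Step

theorem good : goodb G = true := rfl

theorem top_start (S : Sem) (F : SF G S) (F' : TF G S) (F'' : IF G S)
    (hE : ∀ c ∈ ex, Hd (val S) c) : ∀ c ∈ inv, Hd (val S) (c.map nxl) :=
  start (ax_of good F F') (ci_of good F'') hE

theorem top_step (S : Sem) (F : SF G S) (F' : TF G S) (h : ∀ c ∈ inv, Hd (val S) c) :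
    ∀ c ∈ inv, Hd (val S) (c.map nxl) := step (ax_of good F F') h

theorem top_fin (S : Sem) (F : SF G S) (F' : BF G S) : ¬ ∀ c ∈ inv, Hd (val S) c :=
  fin (cs_of good F) (cb_of good F')

end Vale.Agent.P032.R2.H741.R2A
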