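import Vale.Agent.P032.R2.H137.Roots
import Vale.Agent.P032.R2.H805.Step

/-!
# P032: root R2A: the invariant
-/

set_option autoImplicit false
set_option maxRecDepth 100000

namespace Vale.Agent.P032.R2.H741.R2A

open Vale.Agent.P032.R2.H741.Tp
open Vale.Agent.P032.R2.H805.Step

/-- the rings -/
abbrev G : RD := Vale.Agent.P032.R2.H137.rdR2

/-- block 0 of the invariant -/
def b0 : List (List ℕ) :=
  [[1104, 385, 408, 602],
   [1104, 602, 614],
   [1104, 604, 616],
   [1104, 384, 390, 608],
   [1075],
   [1104, 384, 391, 606],
   [1104, 390, 402, 600],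
   [1105]]

/-- the invariant in blocks -/
def B : List (List (List ℕ)) := [b0]

/-- the invariant -/
def inv : List (List ℕ) := B.flatten

/-- clauses about the first instant -/
def ex : List (List ℕ) := [[120], [122], [144], [146]]

/-- clauses which hold just before the first instant, and `ex` -/
def B0 : List (List (List ℕ)) :=
  [[[1075], [1104], [120], [122], [144], [146]]]

theorem inv_st : ∀ c ∈ inv, ∀ j ∈ c, j / 2 < 704 * (G.R + G.Y) ∧ isSt (j / 2 % 704) = true :=
  stc_sound (by decide +kernel)

end Vale.Agent.P032.R2.H741.R2A
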