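import Vale.Agent.P032.R2.H741.R2A.P0
import Vale.Agent.P032.R2.H741.R2A.S0

/-!
# P032: root R2A: start, step, end
-/

set_option autoImplicit false
set_option maxRecDepth 100000

namespace Vale.Agent.P032.R2.H741.R2A

open Vale.Agent.P032.R2.H741.Tp
open Vale.Agent.P032.R2.H805.Step
open Vale.Agent.P032.R2.H805.Rup

section

variable {S : Sem}

theorem stepB (A : Ax G S) (H : Hds (val S) B) : Hns (val S) B :=
  hns_cons (Blk0.blk A H) (hns_nil)

/-- **step** -/
theorem step (A : Ax G S) (H : ∀ c ∈ inv, Hd (val S) c) : ∀ c ∈ inv, Hd (val S) (c.map nxl) :=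
  hns_flat.1 (stepB A (hds_flat.2 H))

theorem e0 : fns G B []
    [.doneend 0 1]
    [4] 0x219
    [[0], [1]]
    1 2 3 1
    (.leaf 0x9)
    [0x9] 2 2 = true := by
  decide +kernel

/-- **end** -/
theorem fin (A : ∀ f : CS, f.ok G = true → Hd (val S) (f.cl G))
    (A2 : ∀ f : CB, f.ok G = true → Hd (val S) (f.cl G)) : ¬ ∀ c ∈ inv, Hd (val S) c :=
  fun H => fns_sound A A2 e0 (hds_flat.2 H)

theorem startB (A : Ax G S) (H : Hds (val S) B0) : Hns (val S) B :=
  hns_cons (Sta0.blk A H) (hns_nil)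

theorem ini_ok : ini G [.done0 0 1, .first]
    ex B0 = true := by
  decide +kernel

/-- **after the first instant** -/
theorem start (A : Ax G S) (A2 : ∀ f : CI, f.ok G = true → Hd (val S) (f.cl G))
    (hE : ∀ e ∈ ex, Hd (val S) e) : ∀ c ∈ inv, Hd (val S) (c.map nxl) :=
  hns_flat.1 (startB A (ini_sound A2 hE ini_ok))

end

end Vale.Agent.P032.R2.H741.R2A
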